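import Vale.Agent.P088.R2.H408.JScale
import Vale.Agent.P088.R2.H169.BSB

/-!
# P088: row SB, arbitrary pairs (metric, connection) on a small domain

The scaled and cut-off pair `g(x₀) + χ(y) (g(x₀ + r y) - g(x₀))`, `χ(y) r A(x₀ + r y)` has bounds of
every order which do not depend on `r ≤ 1`; the metric has small oscillation, and the connection is
small in `C^0`.
-/

open MeasureTheory Set Filter Topology
open scoped ContDiff Matrix

noncomputable section

namespace Vale.Agent.P088.R2.H408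

open Vale.Agent.P088.LR Vale.Agent.P088.LR.B Vale.Agent.P088.LR.CF Vale.Agent.P088.H639
  Vale.Agent.P088.HY.Bd Vale.Agent.P088.R2.H934 Vale.Agent.P088.LR.H158 Vale.Agent.P088.LR.U
  Vale.Agent.P088.PJ.Bd

variable {n N : ℕ}

/-- The cut-off scaled connection. -/
def cutA (χ : V n → ℝ) (r : ℝ) (x₀ : V n) (A : Cn n N) : Cn n N :=
  fun i y => ((χ y * r : ℝ) : ℂ) • A i (q r x₀ y)

lemma cutA_apply (χ : V n → ℝ) (r : ℝ) (x₀ : V n) (A : Cn n N) (i : Fin n) (α β : Fin N) :
    (fun y => cutA χ r x₀ A i y α β) = fun y => χ y • (r • A i (q r x₀ y) α β) := by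
  funext y
  unfold cutA
  rw [Matrix.smul_apply, smul_smul, Complex.coe_smul]

lemma cutA_smU {χ : V n → ℝ} (hχ : ContDiff ℝ ∞ χ) (r : ℝ) (x₀ : V n) {A : Cn n N}
    (hA : SmU A) : SmU (cutA χ r x₀ A) := by
  refine ⟨fun i α β => ?_, fun i y => ?_⟩
  · rw [cutA_apply]
    exact hχ.smul (((hA.1 i α β).comp (contDiff_q r x₀)).const_smul r)
  · unfold cutA
    rw [Matrix.conjTranspose_smul, hA.2 i, smul_neg]
    congr 2
    exact Complex.conj_ofReal _

lemma cutA_conB {χ : V n → ℝ} (hχ : ContDiff ℝ ∞ χ) {C : ℕ → ℝ} (hC : ∀ l, Cl l (C l) χ)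
    {Bm b : ℕ → ℝ} (hBm : ∀ l l', l' ≤ l → |b l'| ≤ Bm l) {k k' : ℕ} (hk : k' ≤ k) {r : ℝ}
    (hr : 0 < r) (hr1 : r ≤ 1) (x₀ : V n) {A : Cn n N} (hA : ConB k b A) {c : ℝ} (hc : 0 ≤ c) :
    ConB k' (fun l => c + 2 ^ l * (C l * Bm l)) (cutA χ r x₀ A) := by
  refine ⟨cutA_smU hχ r x₀ hA.1, fun i α β l hl y => ?_⟩
  rw [cutA_apply]
  have hs : ContDiff ℝ ∞ fun y => A i (q r x₀ y) α β := (hA.1.1 i α β).comp (contDiff_q r x₀)
  have hB0 : 0 ≤ Bm l := (abs_nonneg _).trans (hBm l 0 (Nat.zero_le _))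
  have h1 := cl_cutF (k := l) hχ (hs.const_smul r) (hC l) (δ := Bm l) (fun z l' hl' => ?_) hB0
    l le_rfl y
  · linarith
  · have h2 : iteratedFDeriv ℝ l' (fun y => r • A i (q r x₀ y) α β) z =
        r • iteratedFDeriv ℝ l' (fun y => A i (q r x₀ y) α β) z := by
      have := iteratedFDeriv_const_smul_apply (𝕜 := ℝ) (i := l') (x := z) (a := r)
        (f := fun y => A i (q r x₀ y) α β) (hs.contDiffAt.of_le (by exact_mod_cast le_top))
      exact this
    rw [h2, norm_smul, Real.norm_of_nonneg hr.le]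
    have h3 := ifd_qF (hA.1.1 i α β) hr x₀ l' z
    have h4 := hA.2 i α β l' ((hl'.trans hl).trans hk) (q r x₀ z)
    have h5 : r ^ l' ≤ 1 := pow_le_one₀ hr.le hr1
    calc r * ‖iteratedFDeriv ℝ l' (fun y => A i (q r x₀ y) α β) z‖
        ≤ 1 * (1 * ‖iteratedFDeriv ℝ l' (fun x => A i x α β) (q r x₀ z)‖) := by
          refine mul_le_mul hr1 (h3.trans ?_) (norm_nonneg _) zero_le_one
          exact mul_le_mul_of_nonneg_right h5 (norm_nonneg _)
      _ ≤ b l' := by rw [one_mul, one_mul]; exact h4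
      _ ≤ |b l'| := le_abs_self _
      _ ≤ Bm l := hBm l l' hl'

lemma cutA_C0 {χ : V n → ℝ} (h0 : ∀ y, 0 ≤ χ y) (h1 : ∀ y, χ y ≤ 1) {k : ℕ} {b : ℕ → ℝ}
    {r ε : ℝ} (hr : 0 < r) (x₀ : V n) {A : Cn n N} (hA : ConB k b A) (hε : r * |b 0| ≤ ε) :
    C0 univ ε (cutA χ r x₀ A) := by
  intro y _ i α β
  have h2 : cutA χ r x₀ A i y α β = χ y • (r • A i (q r x₀ y) α β) :=
    congrFun (cutA_apply χ r x₀ A i α β) y
  rw [h2, norm_smul, norm_smul, Real.norm_of_nonneg hr.le, Real.norm_of_nonneg (h0 y)]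
  have h3 := hA.2 i α β 0 (Nat.zero_le _) (q r x₀ y)
  rw [norm_iteratedFDeriv_zero] at h3
  have h4 : r * ‖A i (q r x₀ y) α β‖ ≤ r * |b 0| :=
    mul_le_mul_of_nonneg_left (h3.trans (le_abs_self _)) hr.le
  calc χ y * (r * ‖A i (q r x₀ y) α β‖) ≤ 1 * (r * ‖A i (q r x₀ y) α β‖) :=
        mul_le_mul_of_nonneg_right (h1 y) (by positivity)
    _ ≤ ε := by rw [one_mul]; exact h4.trans hε

/-- **Row SB.** -/
theorem rowSB (hF : RowOS) : RowSB := by
  intro n N hn hN ρ hρ b
  obtain ⟨R', hR'⟩ := hρ.bd.subset_closedBall (0 : V n)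
  set R : ℝ := max R' 1 with hRdef
  have hR1 : 1 ≤ R := le_max_right _ _
  have hin : ∀ y, 0 ≤ ρ y → ‖y‖ ≤ R := by
    intro y hy
    have := hR' hy
    rw [mem_closedBall_zero_iff] at this
    exact this.trans (le_max_left _ _)
  let χ : ContDiffBump (0 : V n) := ⟨R, R + 1, by linarith, by linarith⟩
  have hχs : ContDiff ℝ ∞ (χ : V n → ℝ) := χ.contDiff
  have hχ1 : ∀ y, 0 ≤ ρ y → χ y = 1 := fun y hy =>
    χ.one_of_mem_closedBall (by rw [mem_closedBall_zero_iff]; exact hin y hy)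
  have hχt : tsupport (χ : V n → ℝ) ⊆ Metric.closedBall 0 (R + 1) := by
    rw [χ.tsupport_eq]
  have hχc := fun k => cl_compact hχs χ.hasCompactSupport k
  choose C hC hCχ using hχc
  -- the case `b 0 ≤ 0`
  rcases le_or_gt (b 0) 0 with hb0 | hb0
  · refine ⟨0, 1, one_pos, fun g₁ g₂ hg₁ _ _ _ _ _ r x₀ _ _ => ?_⟩
    exfalso
    have h1 := (hg₁.2.1 0).diag_pos (i := (⟨0, by omega⟩ : Fin n))
    have h2 := hg₁.2.2.1 ⟨0, by omega⟩ ⟨0, by omega⟩ 0 le_rfl 0
    rw [norm_iteratedFDeriv_zero, Real.norm_eq_abs] at h2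
    have h3 := le_abs_self (g₁ 0 ⟨0, by omega⟩ ⟨0, by omega⟩)
    linarith
  -- the bounds
  set Bm : ℕ → ℝ := fun l => 2 * ∑ j ∈ Finset.range (l + 1), |b j| with hBm
  have hBm0 : ∀ l, 0 ≤ Bm l := fun l => by simp only [hBm]; positivity
  have hBml : ∀ l l', l' ≤ l → |b l'| ≤ Bm l := by
    intro l l' h
    have h1 : |b l'| ≤ ∑ j ∈ Finset.range (l + 1), |b j| :=
      Finset.single_le_sum (f := fun j => |b j|) (fun _ _ => abs_nonneg _)
        (Finset.mem_range.2 (by omega))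
    have h2 : 0 ≤ ∑ j ∈ Finset.range (l + 1), |b j| := Finset.sum_nonneg fun _ _ => abs_nonneg _
    simp only [hBm]
    linarith
  have hBm2 : ∀ l, 2 * |b 0| ≤ Bm l := by
    intro l
    have h1 : |b 0| ≤ ∑ j ∈ Finset.range (l + 1), |b j| :=
      Finset.single_le_sum (f := fun j => |b j|) (fun _ _ => abs_nonneg _)
        (Finset.mem_range.2 (by omega))
    simp only [hBm]
    linarith
  obtain ⟨k', ε, hε, hF⟩ := hF n N hn hN ρ hρ (fun l => 2 * |b 0| + 2 ^ l * (C l * Bm l))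
  obtain ⟨δ, hδ, hdet⟩ := det_near169 n hb0
  set B1 : ℝ := |b 0| + |b 1| + 1 with hB1
  have hB1p : 0 < B1 := by positivity
  have hM : 0 < B1 * (R + 1) := by positivity
  refine ⟨max k' 1, min 1 (min (δ / (B1 * (R + 1))) (ε / (2 * (B1 * (R + 1))))),
    by positivity, fun g₁ g₂ hg₁ hg₂ A₁ A₂ hA₁ hA₂ r x₀ hr hrr hSE => ?_⟩
  have hr1 : r ≤ 1 := hrr.trans (min_le_left _ _)
  have hr2 : B1 * r * (R + 1) ≤ δ := by
    have := hrr.trans ((min_le_right _ _).trans (min_le_left _ _))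
    rw [le_div_iff₀ hM] at this
    linarith
  have hr3 : 2 * (B1 * r * (R + 1)) ≤ ε := by
    have := hrr.trans ((min_le_right _ _).trans (min_le_right _ _))
    rw [le_div_iff₀ (by positivity)] at this
    linarith
  -- the cut-off metrics
  let gt : MF n → MF n := fun g y => g x₀ + χ y • (g (q r x₀ y) - g x₀)
  have happ : ∀ (g : MF n) (i j : Fin n), (fun y => gt g y i j) =
      fun y => g x₀ i j + χ y * (g (q r x₀ y) i j - g x₀ i j) := by
    intro g i j
    funext y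
    simp [gt]
  -- smallness of the difference
  have hsmall : ∀ g : MF n, MetB (max k' 1) b g → ∀ i j y,
      |χ y * (g (q r x₀ y) i j - g x₀ i j)| ≤ B1 * r * (R + 1) := by
    intro g hg i j y
    by_cases hy : ‖y‖ ≤ R + 1
    · have hcl : Cl (0 + 1) B1 (fun x => g x i j) := by
        intro l hl x
        have h1 := hg.2.2.1 i j l (hl.trans (le_max_right _ _)) x
        refine h1.trans ?_
        have h2 : l = 0 ∨ l = 1 := by omega
        rcases h2 with rfl | rfl
        · have := le_abs_self (b 0); have := abs_nonneg (b 1); linarith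
        · have := le_abs_self (b 1); have := abs_nonneg (b 0); linarith
      have h1 := near_q (hg.1 i j) hcl hr hr1 x₀ (R := R + 1) (by linarith) hy 0 le_rfl
      rw [norm_iteratedFDeriv_zero, Real.norm_eq_abs] at h1
      rw [abs_mul, abs_of_nonneg χ.nonneg]
      calc χ y * |g (q r x₀ y) i j - g x₀ i j| ≤ 1 * |g (q r x₀ y) i j - g x₀ i j| :=
            mul_le_mul_of_nonneg_right χ.le_one (abs_nonneg _)
        _ ≤ B1 * r * (R + 1) := by rw [one_mul]; exact h1
    · have h1 : χ y = 0 := by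
        refine χ.zero_of_le_dist ?_
        rw [dist_zero_right]
        exact (not_le.1 hy).le
      rw [h1, zero_mul, abs_zero]
      positivity
  have hmet : ∀ g : MF n, MetB (max k' 1) b g →
      MetB k' (fun l => 2 * |b 0| + 2 ^ l * (C l * Bm l)) (gt g) := by
    intro g hg
    refine ⟨fun i j => ?_, fun y => posDef_comb (hg.2.1 _) (hg.2.1 _) χ.nonneg χ.le_one,
      fun i j l hl y => ?_, fun y => ?_⟩
    · rw [happ]
      exact contDiff_const.add (hχs.mul (((hg.1 i j).comp (contDiff_q r x₀)).sub contDiff_const))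
    · rw [happ]
      have hh : ContDiff ℝ ∞ (fun y => g (q r x₀ y) i j - g x₀ i j) :=
        ((hg.1 i j).comp (contDiff_q r x₀)).sub contDiff_const
      have h1 := fun_iteratedFDeriv_add_apply (𝕜 := ℝ) (i := l) (x := y)
        (f := fun _ => g x₀ i j) (g := fun y => χ y * (g (q r x₀ y) i j - g x₀ i j))
        contDiffAt_const ((hχs.mul hh).contDiffAt.of_le (by exact_mod_cast le_top))
      rw [h1]
      refine (norm_add_le _ _).trans (add_le_add ?_ ?_)
      · rcases eq_or_ne l 0 with rfl | hl0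
        · rw [norm_iteratedFDeriv_zero]
          have h2 := hg.2.2.1 i j 0 (Nat.zero_le _) x₀
          rw [norm_iteratedFDeriv_zero] at h2
          have := le_abs_self (b 0)
          have := abs_nonneg (b 0)
          linarith
        · rw [iteratedFDeriv_const_of_ne hl0]
          simp
      · refine cl_cut (k := l) hχs hh (hCχ l) hχt (fun z _ l' hl' => ?_) (hBm0 l) l le_rfl y
        rcases eq_or_ne l' 0 with rfl | hl0
        · rw [norm_iteratedFDeriv_zero]
          have h2 := hg.2.2.1 i j 0 (Nat.zero_le _) x₀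
          have h3 := hg.2.2.1 i j 0 (Nat.zero_le _) (q r x₀ z)
          rw [norm_iteratedFDeriv_zero] at h2 h3
          refine (norm_sub_le _ _).trans ?_
          have := le_abs_self (b 0)
          have := hBm2 l
          linarith
        · have h4 : iteratedFDeriv ℝ l' (fun y => g (q r x₀ y) i j - g x₀ i j) z =
              iteratedFDeriv ℝ l' (fun y => g (q r x₀ y) i j) z := by
            have h5 := fun_iteratedFDeriv_sub_apply (𝕜 := ℝ) (i := l') (x := z)
              (f := fun y => g (q r x₀ y) i j) (g := fun _ => g x₀ i j)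
              (((hg.1 i j).comp (contDiff_q r x₀)).contDiffAt.of_le (by exact_mod_cast le_top))
              contDiffAt_const
            rw [h5, iteratedFDeriv_const_of_ne hl0]
            simp
          rw [h4]
          refine (ifd_q (hg.1 i j) hr x₀ l' z).trans ?_
          have h5 := hg.2.2.1 i j l' ((hl'.trans hl).trans (le_max_left _ _)) (q r x₀ z)
          have h6 : r ^ l' ≤ 1 := pow_le_one₀ hr.le hr1
          calc r ^ l' * ‖iteratedFDeriv ℝ l' (fun x => g x i j) (q r x₀ z)‖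
              ≤ 1 * ‖iteratedFDeriv ℝ l' (fun x => g x i j) (q r x₀ z)‖ :=
                mul_le_mul_of_nonneg_right h6 (norm_nonneg _)
            _ ≤ b l' := by rw [one_mul]; exact h5
            _ ≤ |b l'| := le_abs_self _
            _ ≤ Bm l := hBml l l' hl'
    · have h1 := hdet (g x₀) (χ y • (g (q r x₀ y) - g x₀)) (fun i j => ?_) (hg.2.2.2 x₀)
        (fun i j => ?_)
      · refine le_trans ?_ h1
        refine inv_anti₀ (by positivity) ?_
        have h2 : 0 ≤ 2 ^ 0 * (C 0 * Bm 0) := by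
          have := hBm0 0; have := (hC 0).le; positivity
        have := le_abs_self (b 0)
        linarith
      · have h2 := hg.2.2.1 i j 0 (Nat.zero_le _) x₀
        rwa [norm_iteratedFDeriv_zero, Real.norm_eq_abs] at h2
      · rw [Matrix.smul_apply, Matrix.sub_apply, smul_eq_mul]
        exact (hsmall g hg i j y).trans hr2
  have hosc : ∀ g : MF n, MetB (max k' 1) b g → Osc ε (gt g) := by
    intro g hg i j y z
    have h1 : gt g y i j = g x₀ i j + χ y * (g (q r x₀ y) i j - g x₀ i j) :=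
      congrFun (happ g i j) y
    have h2 : gt g z i j = g x₀ i j + χ z * (g (q r x₀ z) i j - g x₀ i j) :=
      congrFun (happ g i j) z
    rw [h1, h2, add_sub_add_left_eq_sub]
    refine (abs_sub _ _).trans ?_
    have h3 := hsmall g hg i j y
    have h4 := hsmall g hg i j z
    linarith
  have hon : ∀ g : MF n, ∀ y, 0 ≤ ρ y → gt g y = g (q r x₀ y) := by
    intro g y hy
    show g x₀ + χ y • (g (q r x₀ y) - g x₀) = _
    rw [hχ1 y hy, one_smul]; abel
  -- the cut-off connections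
  have hcon : ∀ A : Cn n N, ConB (max k' 1) b A →
      ConB k' (fun l => 2 * |b 0| + 2 ^ l * (C l * Bm l)) (cutA χ r x₀ A) := fun A hA =>
    cutA_conB hχs hCχ hBml (le_max_left _ _) hr hr1 x₀ hA (by positivity)
  have hc0 : ∀ A : Cn n N, ConB (max k' 1) b A → C0 univ ε (cutA χ r x₀ A) := fun A hA => by
    refine cutA_C0 (fun y => χ.nonneg) (fun y => χ.le_one) hr x₀ hA ?_
    have h1 : r * |b 0| ≤ r * B1 := by
      have := abs_nonneg (b 1)
      exact mul_le_mul_of_nonneg_left (by rw [hB1]; linarith) hr.le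
    have h2 : 0 ≤ r * B1 := by positivity
    nlinarith
  have honA : ∀ A : Cn n N, ∀ i y, 0 ≤ ρ y → cutA χ r x₀ A i y = (r : ℂ) • A i (q r x₀ y) := by
    intro A i y hy
    unfold cutA
    rw [hχ1 y hy, one_mul]
  -- the data
  have hO : MeasurableSet (Om (scR ρ r x₀)) := by
    have : IsOpen (Om (scR ρ r x₀)) := isOpen_lt continuous_const
      (hρ.sm.continuous.comp (contDiff_qi r x₀).continuous)
    exact this.measurableSet
  have hO' : MeasurableSet (Om ρ) := (isOpen_lt continuous_const hρ.sm.continuous).measurableSet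
  have hOm : q r x₀ ⁻¹' Om (scR ρ r x₀) = Om ρ := by
    ext y
    show 0 < ρ (qi r x₀ (q r x₀ y)) ↔ 0 < ρ y
    rw [qi_q hr.ne']
  have hSE' : SDU (Om ρ) (gt g₁) (cutA χ r x₀ A₁) (gt g₂) (cutA χ r x₀ A₂) := by
    have h1 := SDU_q hr.ne' x₀ _ hO hSE
    rw [hOm] at h1
    refine SDU_congrA hO' (fun y hy => ?_) (fun i y hy => ?_) (fun y hy => ?_)
      (fun i y hy => ?_) h1
    · exact (hon g₁ y (le_of_lt hy)).symm
    · exact (honA A₁ i y (le_of_lt hy)).symm
    · exact (hon g₂ y (le_of_lt hy)).symm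
    · exact (honA A₂ i y (le_of_lt hy)).symm
  obtain ⟨Φ, Ψ, U, ⟨hΦ, hΨ, h1, h2, h3, h4, h5, h6⟩, hU⟩ := hF (gt g₁) (gt g₂) (hmet g₁ hg₁)
    (hmet g₂ hg₂) (hosc g₁ hg₁) (hosc g₂ hg₂) (cutA χ r x₀ A₁) (cutA χ r x₀ A₂) (hcon A₁ hA₁)
    (hcon A₂ hA₂) (hc0 A₁ hA₁) (hc0 A₂ hA₂) hSE'
  refine ⟨fun x => q r x₀ (Φ (qi r x₀ x)), fun x => q r x₀ (Ψ (qi r x₀ x)),
    fun x => U (qi r x₀ x), ⟨(contDiff_q r x₀).comp (hΦ.comp (contDiff_qi r x₀)),
    (contDiff_q r x₀).comp (hΨ.comp (contDiff_qi r x₀)), ?_, ?_, ?_, ?_, ?_, ?_⟩,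
    Gau_qi hr.ne' x₀ hΦ h4 (fun i y hy => honA A₁ i y hy.le) (fun i y hy => honA A₂ i y hy.le) hU⟩
  · intro x
    show q r x₀ (Ψ (qi r x₀ (q r x₀ (Φ (qi r x₀ x))))) = x
    rw [qi_q hr.ne', h1, q_qi hr.ne']
  · intro x
    show q r x₀ (Φ (qi r x₀ (q r x₀ (Ψ (qi r x₀ x))))) = x
    rw [qi_q hr.ne', h2, q_qi hr.ne']
  · intro x hx
    show q r x₀ (Φ (qi r x₀ x)) = x
    rw [h3 (qi r x₀ x) hx, q_qi hr.ne']
  · intro x
    show 0 < ρ (qi r x₀ (q r x₀ (Φ (qi r x₀ x)))) ↔ 0 < ρ (qi r x₀ x)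
    rw [qi_q hr.ne', h4]
  · intro x
    rw [Jm_q hΦ hr.ne']
    exact h5 _
  · intro x hx
    rw [Jm_q hΦ hr.ne']
    have hx' : 0 ≤ ρ (qi r x₀ x) := hx
    have hΦx : 0 ≤ ρ (Φ (qi r x₀ x)) := by
      rcases hx'.lt_or_eq with h | h
      · exact ((h4 _).2 h).le
      · rw [h3 _ h.symm]; exact hx'
    have := h6 (qi r x₀ x) hx'
    rw [hon g₂ _ hx', hon g₁ _ hΦx, q_qi hr.ne'] at this
    exact this

end Vale.Agent.P088.R2.H408
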