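import Vale.Agent.P088.R2.H551.B.Spec
import Vale.Agent.P088.R2.H934.BSm

/-!
# P088, pairs (metric, connection): change of scale `y ↦ r y + x₀`
-/

open MeasureTheory Set Filter Topology
open scoped ContDiff Matrix

noncomputable section

namespace Vale.Agent.P088.R2.H408

open Vale.Agent.P088.LR Vale.Agent.P088.LR.B Vale.Agent.P088.LR.CF Vale.Agent.P088.H639
  Vale.Agent.P088.HY.Bd Vale.Agent.P088.R2.H934 Vale.Agent.P088.LR.H158 Vale.Agent.P088.LR.U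

variable {n N : ℕ}

/-- The pulled back connection `r A (r y + x₀)`. -/
def scA (r : ℝ) (x₀ : V n) (A : Cn n N) : Cn n N := fun i y => (r : ℂ) • A i (q r x₀ y)

lemma pd_qF {F : Type*} [NormedAddCommGroup F] [NormedSpace ℝ F] (i : Fin n) {f : V n → F}
    (hf : Differentiable ℝ f) (r : ℝ) (x₀ y : V n) :
    pd i (fun y => f (q r x₀ y)) y = r • pd i f (q r x₀ y) := by
  have h := (hf (q r x₀ y)).hasFDerivAt.comp y (fd_q r x₀ y)
  unfold pd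
  rw [show (fun y => f (q r x₀ y)) = f ∘ q r x₀ from rfl, h.fderiv]
  simp

lemma pd_qiF {F : Type*} [NormedAddCommGroup F] [NormedSpace ℝ F] (i : Fin n) {f : V n → F}
    (hf : Differentiable ℝ f) (r : ℝ) (x₀ y : V n) :
    pd i (fun y => f (qi r x₀ y)) y = r⁻¹ • pd i f (qi r x₀ y) := by
  have h := (hf (qi r x₀ y)).hasFDerivAt.comp y (fd_qi r x₀ y)
  unfold pd
  rw [show (fun y => f (qi r x₀ y)) = f ∘ qi r x₀ from rfl, h.fderiv]
  simp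

lemma int_qC (r : ℝ) (x₀ : V n) (Ω : Set (V n)) (f : V n → ℂ) (hΩ : MeasurableSet Ω) :
    ∫ y in q r x₀ ⁻¹' Ω, f (q r x₀ y) = |(r ^ n)⁻¹| • ∫ x in Ω, f x := by
  have hΩ' : MeasurableSet (q r x₀ ⁻¹' Ω) := (contDiff_q r x₀).continuous.measurable hΩ
  rw [← integral_indicator hΩ, ← integral_indicator hΩ']
  have h1 : ∀ y, (q r x₀ ⁻¹' Ω).indicator (fun y => f (q r x₀ y)) y =
      (fun z => Ω.indicator f (z + x₀)) (r • y) := by
    intro y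
    by_cases hy : q r x₀ y ∈ Ω
    · rw [indicator_of_mem (show y ∈ q r x₀ ⁻¹' Ω from hy)]
      exact (indicator_of_mem hy f).symm
    · rw [indicator_of_notMem (show y ∉ q r x₀ ⁻¹' Ω from hy)]
      exact (indicator_of_notMem hy f).symm
  simp_rw [h1]
  rw [Measure.integral_comp_smul volume (fun z : V n => Ω.indicator f (z + x₀)) r,
    integral_add_right_eq_self (fun z => Ω.indicator f z)]
  simp

lemma cd_q (r : ℝ) (x₀ : V n) (A : Cn n N) (i : Fin n) {u : V n → Fin N → ℂ}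
    (hu : ContDiff ℝ ∞ u) (y : V n) :
    cd (scA r x₀ A) i (fun y => u (q r x₀ y)) y = (r : ℂ) • cd A i u (q r x₀ y) := by
  unfold cd scA
  rw [pd_qF i (hu.differentiable (by simp)) r x₀ y, smul_add, Matrix.smul_mulVec]
  simp only [Complex.coe_smul]

lemma dot_smul (r : ℝ) (a b : Fin N → ℂ) :
    ((r : ℂ) • a) ⬝ᵥ star ((r : ℂ) • b) = ((r ^ 2 : ℝ) : ℂ) * (a ⬝ᵥ star b) := by
  simp only [dotProduct, Pi.smul_apply, Pi.star_apply, smul_eq_mul, star_mul']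
  rw [Finset.mul_sum]
  refine Finset.sum_congr rfl fun i _ => ?_
  have h : star (r : ℂ) = r := Complex.conj_ofReal r
  rw [h]
  push_cast
  ring

/-- The scaling factor of the forms. -/
theorem en_q {r : ℝ} (x₀ : V n) (Ω : Set (V n)) (hΩ : MeasurableSet Ω) (g : MF n) (A : Cn n N)
    {u v : V n → Fin N → ℂ} (hu : ContDiff ℝ ∞ u) (hv : ContDiff ℝ ∞ v) :
    en (q r x₀ ⁻¹' Ω) (fun y => g (q r x₀ y)) (scA r x₀ A) (fun y => u (q r x₀ y))
      (fun y => v (q r x₀ y)) = ((r ^ 2 * |(r ^ n)⁻¹| : ℝ) : ℂ) * en Ω g A u v := by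
  unfold en
  have h := int_qC r x₀ Ω
    (fun x => ∑ i, ∑ j, (sg g x i j : ℂ) * (cd A i u x ⬝ᵥ star (cd A j v x))) hΩ
  rw [Complex.real_smul] at h
  rw [Complex.ofReal_mul, mul_assoc, ← h, ← integral_const_mul]
  refine integral_congr_ae (Filter.Eventually.of_forall fun y => ?_)
  simp only [Finset.mul_sum]
  refine Finset.sum_congr rfl fun i _ => Finset.sum_congr rfl fun j _ => ?_
  rw [cd_q r x₀ A i hu y, cd_q r x₀ A j hv y, dot_smul]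
  show (sg g (q r x₀ y) i j : ℂ) * _ = _
  ring

/-- The form depends only on the pair in `Ω`. -/
theorem en_congrA {Ω : Set (V n)} (hΩ : MeasurableSet Ω) {g g' : MF n} {A A' : Cn n N}
    (hg : ∀ x ∈ Ω, g x = g' x) (hA : ∀ i, ∀ x ∈ Ω, A i x = A' i x) (u v : V n → Fin N → ℂ) :
    en Ω g A u v = en Ω g' A' u v := by
  unfold en
  refine setIntegral_congr_fun hΩ fun x hx => ?_
  refine Finset.sum_congr rfl fun i _ => Finset.sum_congr rfl fun j _ => ?_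
  unfold cd sg
  rw [hg x hx, hA i x hx, hA j x hx]

theorem Hr_congrA {Ω : Set (V n)} (hΩ : MeasurableSet Ω) {g g' : MF n} {A A' : Cn n N}
    (hg : ∀ x ∈ Ω, g x = g' x) (hA : ∀ i, ∀ x ∈ Ω, A i x = A' i x) {f u : V n → Fin N → ℂ}
    (h : Hr Ω g A f u) : Hr Ω g' A' f u :=
  ⟨h.1, h.2.1, fun φ hφ h0 => by rw [← en_congrA hΩ hg hA]; exact h.2.2 φ hφ h0⟩

theorem SDU_congrA {Ω : Set (V n)} (hΩ : MeasurableSet Ω) {g₁ g₁' g₂ g₂' : MF n}
    {A₁ A₁' A₂ A₂' : Cn n N} (hg₁ : ∀ x ∈ Ω, g₁ x = g₁' x) (hA₁ : ∀ i, ∀ x ∈ Ω, A₁ i x = A₁' i x)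
    (hg₂ : ∀ x ∈ Ω, g₂ x = g₂' x) (hA₂ : ∀ i, ∀ x ∈ Ω, A₂ i x = A₂' i x)
    (h : SDU Ω g₁ A₁ g₂ A₂) : SDU Ω g₁' A₁' g₂' A₂' := by
  intro f k hf hk
  obtain ⟨u, v, u', v', h1, h2, h3, h4, h5⟩ := h f k hf hk
  refine ⟨u, v, u', v', Hr_congrA hΩ hg₁ hA₁ h1, Hr_congrA hΩ hg₁ hA₁ h2,
    Hr_congrA hΩ hg₂ hA₂ h3, Hr_congrA hΩ hg₂ hA₂ h4, ?_⟩
  rw [← en_congrA hΩ hg₁ hA₁, ← en_congrA hΩ hg₂ hA₂, h5]

lemma fr_q {r : ℝ} (hr : r ≠ 0) (x₀ : V n) (Ω : Set (V n)) (y : V n) :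
    y ∈ frontier (q r x₀ ⁻¹' Ω) ↔ q r x₀ y ∈ frontier Ω := by
  have := (hq r hr x₀).preimage_frontier Ω
  exact (Set.ext_iff.mp this y).symm

lemma cl_q {r : ℝ} (hr : r ≠ 0) (x₀ : V n) (Ω : Set (V n)) (y : V n) :
    y ∈ closure (q r x₀ ⁻¹' Ω) ↔ q r x₀ y ∈ closure Ω := by
  have := (hq r hr x₀).preimage_closure Ω
  exact (Set.ext_iff.mp this y).symm

theorem Hr_q {r : ℝ} (hr : r ≠ 0) (x₀ : V n) (Ω : Set (V n)) (hΩ : MeasurableSet Ω) {g : MF n}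
    {A : Cn n N} {f u : V n → Fin N → ℂ} (h : Hr Ω g A (fun x => f (qi r x₀ x)) u) :
    Hr (q r x₀ ⁻¹' Ω) (fun y => g (q r x₀ y)) (scA r x₀ A) f (fun y => u (q r x₀ y)) := by
  refine ⟨h.1.comp (contDiff_q r x₀), fun y hy => ?_, fun φ hφ h0 => ?_⟩
  · show u (q r x₀ y) = f y
    rw [h.2.1 _ ((fr_q hr x₀ Ω y).1 hy)]
    show f (qi r x₀ (q r x₀ y)) = f y
    rw [qi_q hr]
  · have hφ' : ContDiff ℝ ∞ fun x => φ (qi r x₀ x) := hφ.comp (contDiff_qi r x₀)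
    have h1 := en_q (r := r) x₀ Ω hΩ g A h.1 hφ'
    simp only [qi_q hr] at h1
    rw [h1, h.2.2 _ hφ' (fun x hx => ?_), mul_zero]
    refine h0 _ ((fr_q hr x₀ Ω _).2 ?_)
    rwa [q_qi hr]

/-- Equality of the data is invariant under scaling and translation. -/
theorem SDU_q {r : ℝ} (hr : r ≠ 0) (x₀ : V n) (Ω : Set (V n)) (hΩ : MeasurableSet Ω)
    {g₁ g₂ : MF n} {A₁ A₂ : Cn n N} (h : SDU Ω g₁ A₁ g₂ A₂) :
    SDU (q r x₀ ⁻¹' Ω) (fun y => g₁ (q r x₀ y)) (scA r x₀ A₁) (fun y => g₂ (q r x₀ y))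
      (scA r x₀ A₂) := by
  intro f k hf hk
  obtain ⟨u, v, u', v', h1, h2, h3, h4, h5⟩ := h (fun x => f (qi r x₀ x))
    (fun x => k (qi r x₀ x)) (hf.comp (contDiff_qi r x₀)) (hk.comp (contDiff_qi r x₀))
  refine ⟨_, _, _, _, Hr_q hr x₀ Ω hΩ h1, Hr_q hr x₀ Ω hΩ h2, Hr_q hr x₀ Ω hΩ h3,
    Hr_q hr x₀ Ω hΩ h4, ?_⟩
  rw [en_q x₀ Ω hΩ g₁ A₁ h1.1 h2.1, en_q x₀ Ω hΩ g₂ A₂ h3.1 h4.1, h5]

/-- Derivatives of `f (r y + x₀)`. -/
lemma ifd_qF {F : Type*} [NormedAddCommGroup F] [NormedSpace ℝ F] {f : V n → F}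
    (hf : ContDiff ℝ ∞ f) {r : ℝ} (hr : 0 < r) (x₀ : V n) (l : ℕ)
    (y : V n) : ‖iteratedFDeriv ℝ l (fun y => f (q r x₀ y)) y‖ ≤
      r ^ l * ‖iteratedFDeriv ℝ l f (q r x₀ y)‖ := by
  have h1 : iteratedFDeriv ℝ l (fun y => f (q r x₀ y)) y =
      (iteratedFDeriv ℝ l (fun z => f (z + x₀)) (r • y)).compContinuousLinearMap
        fun _ => r • ContinuousLinearMap.id ℝ (V n) := by
    have := ContinuousLinearMap.iteratedFDeriv_comp_right (r • ContinuousLinearMap.id ℝ (V n))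
      (f := fun z => f (z + x₀)) (n := ∞) (hf.comp (contDiff_id.add contDiff_const)) y (i := l)
      (by exact_mod_cast le_top)
    exact this
  have h2 : iteratedFDeriv ℝ l (fun z => f (z + x₀)) (r • y) =
      iteratedFDeriv ℝ l f (q r x₀ y) := by
    have := iteratedFDeriv_comp_add_right' (𝕜 := ℝ) (f := f) l x₀
    exact congrFun this (r • y)
  rw [h1, h2]
  refine (ContinuousMultilinearMap.norm_compContinuousLinearMap_le _ _).trans ?_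
  have h3 : ‖r • ContinuousLinearMap.id ℝ (V n)‖ ≤ r := by
    rw [norm_smul, Real.norm_of_nonneg hr.le]
    calc r * ‖ContinuousLinearMap.id ℝ (V n)‖ ≤ r * 1 := by
          gcongr; exact ContinuousLinearMap.norm_id_le
      _ = r := mul_one r
  rw [Finset.prod_const, Finset.card_univ, Fintype.card_fin, mul_comm]
  gcongr

/-- Cut-off. -/
lemma cl_cutF {F : Type*} [NormedAddCommGroup F] [NormedSpace ℝ F] {k : ℕ} {χ : V n → ℝ}
    {f : V n → F} (hχ : ContDiff ℝ ∞ χ) (hf : ContDiff ℝ ∞ f) {C δ : ℝ} (hC : Cl k C χ)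
    (hδ : ∀ y : V n, ∀ l ≤ k, ‖iteratedFDeriv ℝ l f y‖ ≤ δ) (hδ0 : 0 ≤ δ) :
    Cl k (2 ^ k * (C * δ)) (fun y => χ y • f y) := by
  intro l hl y
  have hC0 : 0 ≤ C := (norm_nonneg _).trans (hC 0 (by omega) y)
  refine (norm_iteratedFDeriv_smul_le (𝕜 := ℝ) (n := l) (N := ∞) hχ hf y
    (by exact_mod_cast le_top)).trans ?_
  calc ∑ i ∈ Finset.range (l + 1), (l.choose i : ℝ) * ‖iteratedFDeriv ℝ i χ y‖ *
        ‖iteratedFDeriv ℝ (l - i) f y‖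
      ≤ ∑ i ∈ Finset.range (l + 1), (l.choose i : ℝ) * (C * δ) := by
        refine Finset.sum_le_sum fun i hi => ?_
        have hi' : i ≤ l := Nat.lt_succ_iff.1 (Finset.mem_range.1 hi)
        rw [mul_assoc]
        gcongr
        · exact hC i (hi'.trans hl) y
        · exact hδ y (l - i) (by omega)
    _ = 2 ^ l * (C * δ) := by
        rw [← Finset.sum_mul]
        congr 1
        have := Nat.sum_range_choose l
        exact_mod_cast this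
    _ ≤ 2 ^ k * (C * δ) := by
        gcongr
        norm_num

/-- Gauge equivalence after scaling back: if `A₂'`, `A₁'` are the scaled connections on `{ρ > 0}`,
and `Φ` preserves it, the original connections are gauge equivalent on the small domain. -/
theorem Gau_qi {r : ℝ} (hr : r ≠ 0) (x₀ : V n) {ρ : V n → ℝ} {Φ : V n → V n}
    (hΦ : ContDiff ℝ ∞ Φ) (hm : ∀ x, 0 < ρ (Φ x) ↔ 0 < ρ x) {A₁ A₂ B₁ B₂ : Cn n N}
    {U : V n → Matrix (Fin N) (Fin N) ℂ}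
    (h1 : ∀ i, ∀ y, 0 < ρ y → B₁ i y = (r : ℂ) • A₁ i (q r x₀ y))
    (h2 : ∀ i, ∀ y, 0 < ρ y → B₂ i y = (r : ℂ) • A₂ i (q r x₀ y))
    (hU : Gau (Om ρ) U (pbF Φ B₁) B₂) :
    Gau (Om (scR ρ r x₀)) (fun x => U (qi r x₀ x))
      (pbF (fun x => q r x₀ (Φ (qi r x₀ x))) A₁) A₂ := by
  have hOm : q r x₀ ⁻¹' Om (scR ρ r x₀) = Om ρ := by
    ext y
    show 0 < ρ (qi r x₀ (q r x₀ y)) ↔ 0 < ρ y
    rw [qi_q hr]
  have hrC : (r : ℂ) ≠ 0 := by exact_mod_cast hr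
  refine ⟨⟨fun a b => (hU.1.1 a b).comp (contDiff_qi r x₀), fun x hx => ?_, fun i x hx => ?_⟩,
    fun x hx => ?_⟩
  · refine hU.1.2.1 _ ?_
    rw [← hOm, cl_q hr, q_qi hr]
    exact hx
  · have hy : 0 < ρ (qi r x₀ x) := hx
    have h3 := hU.1.2.2 i (qi r x₀ x) hy
    rw [h2 i _ hy, q_qi hr] at h3
    have h4 : pbF Φ B₁ i (qi r x₀ x) =
        (r : ℂ) • pbF (fun x => q r x₀ (Φ (qi r x₀ x))) A₁ i x := by
      unfold pbF
      rw [Finset.smul_sum]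
      refine Finset.sum_congr rfl fun j _ => ?_
      rw [Jm_q hΦ hr, h1 j _ ((hm _).2 hy), smul_comm]
    have h5 : pdm i (fun x => U (qi r x₀ x)) x = (r : ℂ)⁻¹ • pdm i U (qi r x₀ x) := by
      ext a b
      simp only [pdm, Matrix.of_apply, Matrix.smul_apply]
      rw [pd_qiF i ((hU.1.1 a b).differentiable (by simp)) r x₀ x]
      rw [← Complex.coe_smul, Complex.ofReal_inv]
    have h6 : pdm i U (qi r x₀ x) = (r : ℂ) • pdm i (fun x => U (qi r x₀ x)) x := by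
      rw [h5, smul_smul, mul_inv_cancel₀ hrC, one_smul]
    rw [h4, h6] at h3
    have h7 : (r : ℂ) • A₂ i x = (r : ℂ) • ((U (qi r x₀ x))ᴴ *
        pbF (fun x => q r x₀ (Φ (qi r x₀ x))) A₁ i x * U (qi r x₀ x) +
        (U (qi r x₀ x))ᴴ * pdm i (fun x => U (qi r x₀ x)) x) := by
      rw [h3, smul_add]
      simp only [Matrix.mul_smul, Matrix.smul_mul]
    exact smul_right_injective _ hrC h7
  · refine hU.2 _ ?_
    rw [← hOm, fr_q hr, q_qi hr]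
    exact hx

end Vale.Agent.P088.R2.H408
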